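import Vale.Agent.P372.FULL.LinkLin
import Vale.Agent.P372.R2.helper492.LetterDefs

/-! The final link with the partial transpose: the state is moreover not PPT. -/

open Matrix Kronecker Filter Topology
open scoped ComplexOrder MatrixOrder

set_option linter.unusedSectionVars false

namespace Vale.Agent.P372.H676

open Vale.Agent.P372.FULL

variable {A B : Type} [Fintype A] [DecidableEq A] [Fintype B] [DecidableEq B]

theorem pt_smul (c : ℂ) (R : Matrix (A × B) (A × B) ℂ) : pTrans (c • R) = c • pTrans R := rfl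

theorem pt_sub {A' B' : Type} (e : A' ≃ A) (f : B' ≃ B) (R : Matrix (A × B) (A × B) ℂ) :
    pTrans (R.submatrix (e.prodCongr f) (e.prodCongr f)) =
      (pTrans R).submatrix (e.prodCongr f) (e.prodCongr f) := rfl

/-- A positive semidefinite operator which is not separable, not PPT and none of whose multiples
has distillable key gives such a state on `ℂ^a ⊗ ℂ^b`. -/
theorem link_gen (R : Matrix (A × B) (A × B) ℂ) (hR : R.PosSemidef) (hsep : ¬ IsSep R)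
    (hppt : ¬ (pTrans R).PosSemidef)
    (hz : ∀ (a b : ℕ) (e : Fin a ≃ A) (f : Fin b ≃ B) (c : ℝ), 0 < c →
      ∀ (E : Type) [Fintype E] [DecidableEq E] (Ψ : Matrix (Fin a × Fin b) E ℂ),
        Ψ * Ψᴴ = ((c : ℂ) • R).submatrix (e.prodCongr f) (e.prodCongr f) →
        (Ψ * Ψᴴ).trace = 1 → distillableKey Ψ = 0) :
    ∃ (a b : ℕ) (ρ : Matrix (Fin a × Fin b) (Fin a × Fin b) ℂ), ρ.PosSemidef ∧ ρ.trace = 1 ∧
      ¬ IsSep ρ ∧ ¬ (pTrans ρ).PosSemidef ∧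
      ∀ (E : Type) [Fintype E] [DecidableEq E] (Ψ : Matrix (Fin a × Fin b) E ℂ),
        Ψ * Ψᴴ = ρ → distillableKey Ψ = 0 := by
  have ht0 : R.trace ≠ 0 := by
    intro h
    have h1 : R = 0 := hR.trace_eq_zero_iff.mp h
    refine hsep ⟨0, fun _ => 0, fun _ => 0, fun k => k.elim0, fun k => k.elim0, ?_⟩
    rw [h1]
    simp
  have htn : 0 ≤ R.trace := hR.trace_nonneg
  obtain ⟨t, ht⟩ : ∃ t : ℝ, R.trace = (t : ℂ) := by
    refine ⟨R.trace.re, ?_⟩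
    exact (Complex.eq_re_of_ofReal_le (r := 0) (by simpa using htn))
  have htp : 0 < t := by
    rw [ht] at htn ht0
    have h1 : 0 ≤ t := by exact_mod_cast htn
    exact lt_of_le_of_ne h1 (fun h => ht0 (by rw [← h]; simp))
  have hcp : 0 < t⁻¹ := inv_pos.mpr htp
  set e := (Fintype.equivFin A).symm with he
  set f := (Fintype.equivFin B).symm with hf
  have htr : ((((t⁻¹ : ℝ) : ℂ) • R).submatrix (e.prodCongr f) (e.prodCongr f)).trace = 1 := by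
    rw [lk_trace, trace_smul, ht, smul_eq_mul]
    rw [← Complex.ofReal_mul, inv_mul_cancel₀ htp.ne', Complex.ofReal_one]
  refine ⟨Fintype.card A, Fintype.card B, (((t⁻¹ : ℝ) : ℂ) • R).submatrix (e.prodCongr f)
    (e.prodCongr f), (hR.smul (by exact_mod_cast hcp.le)).submatrix _, htr, ?_, ?_, ?_⟩
  · intro h
    have h1 := lk_isSep_smul (lk_isSep e.symm f.symm h) htp.le
    rw [lk_back, smul_smul, ← Complex.ofReal_mul, mul_inv_cancel₀ htp.ne', Complex.ofReal_one,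
      one_smul] at h1
    exact hsep h1
  · intro h
    rw [pt_sub, pt_smul] at h
    have h1 := (h.submatrix (e.symm.prodCongr f.symm)).smul
      (show (0 : ℂ) ≤ ((t : ℝ) : ℂ) by exact_mod_cast htp.le)
    rw [lk_back, smul_smul, ← Complex.ofReal_mul, mul_inv_cancel₀ htp.ne', Complex.ofReal_one,
      one_smul] at h1
    exact hppt h1
  · intro E _ _ Ψ hΨ
    exact hz _ _ e f t⁻¹ hcp E Ψ hΨ (by rw [hΨ, htr])

/-- The final link, from the linear inequality. -/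
theorem link_lin (R : Matrix (A × B) (A × B) ℂ) (hR : R.PosSemidef) (hsep : ¬ IsSep R)
    (hppt : ¬ (pTrans R).PosSemidef)
    (hineq : ∀ (n : ℕ) (X₀ X₁ : Matrix (Fin n → A) (Fin n → A) ℂ)
      (Y₀ Y₁ : Matrix (Fin n → B) (Fin n → B) ℂ),
      4 * traceNorm ((X₀ ⊗ₖ Y₀) * tpow n R * (X₁ ⊗ₖ Y₁)ᴴ) ≤
        weight (tpow n R) X₀ Y₀ + weight (tpow n R) X₀ Y₁ + weight (tpow n R) X₁ Y₀ +
          weight (tpow n R) X₁ Y₁) :
    ∃ (a b : ℕ) (ρ : Matrix (Fin a × Fin b) (Fin a × Fin b) ℂ), ρ.PosSemidef ∧ ρ.trace = 1 ∧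
      ¬ IsSep ρ ∧ ¬ (pTrans ρ).PosSemidef ∧
      ∀ (E : Type) [Fintype E] [DecidableEq E] (Ψ : Matrix (Fin a × Fin b) E ℂ),
        Ψ * Ψᴴ = ρ → distillableKey Ψ = 0 := by
  refine link_gen R hR hsep hppt fun a b e f c hc E _ _ Ψ hΨ htr => ?_
  refine H672.key_zero_of_lin Ψ htr fun n X₀ X₁ Y₀ Y₁ => ?_
  rw [hΨ]
  exact lk_lin hineq e f hc n X₀ X₁ Y₀ Y₁

/-- The final link, from the inequality for fourth powers. -/
theorem link (R : Matrix (A × B) (A × B) ℂ) (hR : R.PosSemidef) (hsep : ¬ IsSep R)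
    (hppt : ¬ (pTrans R).PosSemidef)
    (hineq : ∀ (n : ℕ) (X₀ X₁ : Matrix (Fin n → A) (Fin n → A) ℂ)
      (Y₀ Y₁ : Matrix (Fin n → B) (Fin n → B) ℂ),
      traceNorm ((X₀ ⊗ₖ Y₀) * tpow n R * (X₁ ⊗ₖ Y₁)ᴴ) ^ 4 ≤
        weight (tpow n R) X₀ Y₀ * weight (tpow n R) X₀ Y₁ * weight (tpow n R) X₁ Y₀ *
          weight (tpow n R) X₁ Y₁) :
    ∃ (a b : ℕ) (ρ : Matrix (Fin a × Fin b) (Fin a × Fin b) ℂ), ρ.PosSemidef ∧ ρ.trace = 1 ∧
      ¬ IsSep ρ ∧ ¬ (pTrans ρ).PosSemidef ∧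
      ∀ (E : Type) [Fintype E] [DecidableEq E] (Ψ : Matrix (Fin a × Fin b) E ℂ),
        Ψ * Ψᴴ = ρ → distillableKey Ψ = 0 := by
  refine link_lin R hR hsep hppt fun n X₀ X₁ Y₀ Y₁ => ?_
  have h := hineq n X₀ X₁ Y₀ Y₁
  have hn : ∀ (X : Matrix (Fin n → A) (Fin n → A) ℂ) (Y : Matrix (Fin n → B) (Fin n → B) ℂ),
      0 ≤ weight (tpow n R) X Y := by
    intro X Y
    obtain ⟨C, hC⟩ := exists_eq_conjTranspose_mul_self hR
    have hC2 : R = Cᴴ * Cᴴᴴ := by rw [conjTranspose_conjTranspose]; exact hC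
    rw [hC2]
    exact H672.weight_nn n Cᴴ X Y
  have ha := hn X₀ Y₀
  have hb := hn X₀ Y₁
  have hc := hn X₁ Y₀
  have hd := hn X₁ Y₁
  have ht : 0 ≤ traceNorm ((X₀ ⊗ₖ Y₀) * tpow n R * (X₁ ⊗ₖ Y₁)ᴴ) := traceNorm_nonneg _
  generalize traceNorm ((X₀ ⊗ₖ Y₀) * tpow n R * (X₁ ⊗ₖ Y₁)ᴴ) = F at h ht ⊢
  generalize weight (tpow n R) X₀ Y₀ = a at *
  generalize weight (tpow n R) X₀ Y₁ = b at *
  generalize weight (tpow n R) X₁ Y₀ = c at *
  generalize weight (tpow n R) X₁ Y₁ = d at *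
  have h1 : 4 * (a * b) ≤ (a + b) ^ 2 := by nlinarith [sq_nonneg (a - b)]
  have h2 : 4 * (c * d) ≤ (c + d) ^ 2 := by nlinarith [sq_nonneg (c - d)]
  have h3 : 4 * ((a + b) * (c + d)) ≤ (a + b + c + d) ^ 2 := by
    nlinarith [sq_nonneg (a + b - (c + d))]
  have h4 : 16 * ((a * b) * (c * d)) ≤ ((a + b) * (c + d)) ^ 2 := by
    have := mul_le_mul h1 h2 (by positivity) (by positivity)
    nlinarith
  have h5 : (4 * ((a + b) * (c + d))) ^ 2 ≤ ((a + b + c + d) ^ 2) ^ 2 :=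
    pow_le_pow_left₀ (by positivity) h3 2
  have h6 : (4 * F) ^ 4 ≤ (a + b + c + d) ^ 4 := by
    nlinarith
  exact le_of_pow_le_pow_left₀ (by norm_num) (by positivity) h6

end Vale.Agent.P372.H676
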