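import Vale.Agent.P372.H507.Inst
import Vale.Agent.P372.R2.helper492.LetterDefs

/-!
# The partial transpose of the operator is not positive semidefinite
-/

set_option autoImplicit false
set_option linter.unusedSectionVars false

namespace Vale.Agent.P372.H676

open Matrix Kronecker Complex
open scoped ComplexOrder
open Vale.Agent.P372.Fm Vale.Agent.P372.H507

variable {m : ℕ}

/-- the operators `pl h ⊗ pl h` -/
def Qh (h : V m × V m) : Matrix (V m × V m) (V m × V m) ℂ := pl h ⊗ₖ pl h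

theorem Qh_mul (g h : V m × V m) : Qh g * Qh h = Qh (g + h) := by
  unfold Qh
  rw [← mul_kronecker_mul, pl_mul, smul_kronecker, kronecker_smul, smul_smul, sgc_mul_self,
    one_smul]

theorem pl_conj (h : V m × V m) : (pl h)ᴴ = (sg (h.2 ⬝ᵥ h.1) : ℂ) • pl h := by
  ext u v
  rw [conjTranspose_apply, pl_star, pl_swap, Matrix.smul_apply, smul_eq_mul]

theorem Qh_herm (h : V m × V m) : (Qh h)ᴴ = Qh h := by
  unfold Qh
  rw [conjTranspose_kronecker, pl_conj, smul_kronecker, kronecker_smul, smul_smul, sgc_mul_self,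
    one_smul]

theorem Qh_zero : Qh (0 : V m × V m) = 1 := by
  unfold Qh
  rw [pl_zero, one_kronecker_one]

theorem gen_q (a : Fin m) : (gen m).q a = Qh (lb m a) := by
  unfold Cl.q Qh
  change pl (lb m a) ⊗ₖ (pl (lb m a))ᵀ = _
  rw [pl_transpose _ (lb_self a)]

theorem ap_Qh (h : V m × V m) : ap (kk m) (Qh h) = ((mu h : ℂ) ^ 2) • Qh h := by
  unfold Qh
  rw [ap_kk_kron, ap_tk_pl, smul_kronecker, kronecker_smul, smul_smul, sq]

/-- the smoothing as a linear map -/
noncomputable def apL (m : ℕ) :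
    Matrix (V m × V m) (V m × V m) ℂ →ₗ[ℂ] Matrix (V m × V m) (V m × V m) ℂ where
  toFun X := ap (kk m) X
  map_add' X Y := by
    ext i j
    simp only [ap, Matrix.add_apply, mul_add, Finset.sum_add_distrib]
  map_smul' c X := by
    ext i j
    simp only [ap, Matrix.smul_apply, smul_eq_mul, RingHom.id_apply, Finset.mul_sum]
    refine Finset.sum_congr rfl fun p _ => Finset.sum_congr rfl fun q _ => ?_
    ring

theorem apL_apply (X : Matrix (V m × V m) (V m × V m) ℂ) : apL m X = ap (kk m) X := rfl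

/-- the quadratic form of the partial transpose at the vector `∑ x, (-1) ^ |x| |x x⟩` -/
noncomputable def phi (m : ℕ) : Matrix (V m × V m) (V m × V m) ℂ →ₗ[ℂ] ℂ where
  toFun X := ∑ x : V m, ∑ y : V m,
    ((sg (∑ j, x j) : ℂ) * (sg (∑ j, y j) : ℂ)) * X (x, y) (y, x)
  map_add' X Y := by
    simp only [Matrix.add_apply, mul_add, Finset.sum_add_distrib]
  map_smul' c X := by
    simp only [Matrix.smul_apply, smul_eq_mul, RingHom.id_apply, Finset.mul_sum]
    refine Finset.sum_congr rfl fun p _ => Finset.sum_congr rfl fun q _ => ?_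
    ring

theorem phi_apply (X : Matrix (V m × V m) (V m × V m) ℂ) : phi m X = ∑ x : V m, ∑ y : V m,
    ((sg (∑ j, x j) : ℂ) * (sg (∑ j, y j) : ℂ)) * X (x, y) (y, x) := rfl

/-- the vector -/
noncomputable def vv (m : ℕ) (p : V m × V m) : ℂ := if p.1 = p.2 then (sg (∑ j, p.1 j) : ℂ) else 0

theorem phi_eq (X : Matrix (V m × V m) (V m × V m) ℂ) :
    star (vv m) ⬝ᵥ (pTrans X *ᵥ vv m) = phi m X := by
  rw [phi_apply]
  simp only [dotProduct, mulVec, Fintype.sum_prod_type, Pi.star_apply, pTrans, vv]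
  refine Finset.sum_congr rfl fun x _ => ?_
  rw [Finset.sum_eq_single x]
  · rw [if_pos rfl, Finset.mul_sum]
    refine Finset.sum_congr rfl fun y _ => ?_
    rw [Finset.sum_eq_single y]
    · rw [if_pos rfl]
      have : star ((sg (∑ j, x j) : ℝ) : ℂ) = (sg (∑ j, x j) : ℂ) := by simp
      rw [this]
      ring
    · intro z _ hz
      rw [if_neg (Ne.symm hz), mul_zero]
    · intro h
      exact absurd (Finset.mem_univ _) h
  · intro z _ hz
    rw [if_neg (Ne.symm hz), star_zero, zero_mul]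
  · intro h
    exact absurd (Finset.mem_univ _) h

theorem phi_nonneg (X : Matrix (V m × V m) (V m × V m) ℂ) (h : (pTrans X).PosSemidef) :
    0 ≤ (phi m X).re := by
  rw [← phi_eq]
  have := h.dotProduct_mulVec_nonneg (vv m)
  exact (Complex.le_def.mp this).1

theorem phi_Qh (h : V m × V m) : phi m (Qh h) =
    (2 : ℂ) ^ m * ((sg (∑ j, h.1 j) : ℂ) * (sg (h.2 ⬝ᵥ h.1) : ℂ)) := by
  have e : ∀ x y : V m, ((sg (∑ j, x j) : ℂ) * (sg (∑ j, y j) : ℂ)) * Qh h (x, y) (y, x) =
      ((sg (∑ j, h.1 j) : ℂ) * (sg (h.2 ⬝ᵥ h.1) : ℂ)) * (pl h x y * pl h x y) := by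
    intro x y
    unfold Qh
    rw [kroneckerMap_apply]
    simp only
    rw [pl_swap h x y]
    by_cases hx : x = y + h.1
    · have h1 : ∑ j, x j = ∑ j, y j + ∑ j, h.1 j := by
        rw [hx, ← Finset.sum_add_distrib]
        rfl
      rw [h1, sg_add]
      have h2 := sgc_mul_self (∑ j, y j)
      push_cast
      linear_combination ((sg (∑ j, h.1 j) : ℂ) * (sg (h.2 ⬝ᵥ h.1) : ℂ)) *
        (pl h x y * pl h x y) * h2
    · have h0 : pl h x y = 0 := by
        unfold pl
        rw [if_neg hx]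
      rw [h0]
      ring
  rw [phi_apply]
  simp only [e]
  simp only [← Finset.mul_sum]
  rw [sum_pl_pl, if_pos rfl]
  ring

/-! ### the expansion -/

/-- the label of a set of generators -/
def lS (m : ℕ) (S : Finset (Fin m)) : V m × V m := ∑ a ∈ S, lb m a

theorem ph_expand (c s : ℝ) (l : List (Fin m)) (hl : l.Nodup) :
    (gen m).ph c s l = ∑ S ∈ l.toFinset.powerset,
      ((c : ℂ) ^ (l.length - S.card) * (I * s) ^ S.card) • Qh (lS m S) := by
  induction l with
  | nil => simp [lS, Qh_zero]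
  | cons a l ih =>
    rw [List.nodup_cons] at hl
    have ha : a ∉ l.toFinset := by simpa using hl.1
    rw [Cl.ph_cons, ih hl.2, List.toFinset_cons, Finset.sum_powerset_insert ha, Cl.fac,
      gen_q, Matrix.add_mul, Matrix.smul_mul, Matrix.smul_mul, Matrix.one_mul]
    simp only [Finset.smul_sum, Finset.mul_sum]
    have hc : ∀ S ∈ l.toFinset.powerset, S.card ≤ l.length := by
      intro S hS
      exact (Finset.card_le_card (Finset.mem_powerset.mp hS)).trans (List.toFinset_card_le l)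
    refine congrArg₂ (· + ·) (Finset.sum_congr rfl fun S hS => ?_)
      (Finset.sum_congr rfl fun S hS => ?_)
    · have h1 := hc S hS
      rw [smul_smul, List.length_cons, show l.length + 1 - S.card = (l.length - S.card) + 1 by omega,
        pow_succ]
      congr 1
      ring
    · have h2 : a ∉ S := fun h => ha (Finset.mem_powerset.mp hS h)
      rw [Matrix.mul_smul, Qh_mul, smul_smul, List.length_cons, Finset.card_insert_of_notMem h2,
        show l.length + 1 - (S.card + 1) = l.length - S.card by omega, pow_succ]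
      have h3 : lS m (insert a S) = lb m a + lS m S := by
        unfold lS
        rw [Finset.sum_insert h2]
      rw [h3]
      congr 1
      ring

/-- the coefficient -/
noncomputable def cf (m : ℕ) (c s : ℝ) (k : ℕ) : ℝ := c ^ (m - k) * s ^ k * (I ^ k).im

theorem cf_eq (c s : ℝ) (k : ℕ) : (1 / (2 * I)) * ((c : ℂ) ^ (m - k) * (I * s) ^ k -
    star ((c : ℂ) ^ (m - k) * (I * s) ^ k)) = (cf m c s k : ℂ) := by
  have h1 : (c : ℂ) ^ (m - k) * (I * s) ^ k = ((c ^ (m - k) * s ^ k : ℝ) : ℂ) * I ^ k := by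
    push_cast
    rw [mul_pow]
    ring
  have h2 : ∀ (r : ℝ) (z : ℂ), (1 / (2 * I)) * ((r : ℂ) * z - star ((r : ℂ) * z)) =
      ((r * z.im : ℝ) : ℂ) := by
    intro r z
    have h3 : (r : ℂ) * z - star ((r : ℂ) * z) = (2 * I) * ((r * z.im : ℝ) : ℂ) := by
      apply Complex.ext
      · simp
      · simp
        ring
    rw [h3, ← mul_assoc]
    have h4 : (1 / (2 * I)) * (2 * I) = (1 : ℂ) := by
      field_simp
    rw [h4, one_mul]
  rw [h1, h2]
  rfl

theorem Rh_expand (c s : ℝ) : (gen m).Rh c s = 1 + ∑ S ∈ (Finset.univ : Finset (Fin m)).powerset,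
    (cf m c s S.card : ℂ) • Qh (lS m S) := by
  unfold Cl.Rh Cl.E
  rw [ph_expand c s _ (List.nodup_finRange m), List.toFinset_finRange, List.length_finRange,
    conjTranspose_sum, ← Finset.sum_sub_distrib, Finset.smul_sum]
  congr 1
  refine Finset.sum_congr rfl fun S _ => ?_
  rw [conjTranspose_smul, Qh_herm, ← sub_smul, smul_smul, cf_eq]

/-! ### the signs -/

theorem sg_nat (n : ℕ) : sg (n : ZMod 2) = (-1) ^ n := by
  induction n with
  | zero => simp [sg_zero]
  | succ n ih =>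
    rw [Nat.cast_succ, sg_add, ih, sg_one, pow_succ]

theorem sum_lS (S : Finset (Fin m)) : ∑ j, (lS m S).1 j = (S.card : ZMod 2) := by
  unfold lS
  rw [Prod.fst_sum]
  simp only [Finset.sum_apply]
  rw [Finset.sum_comm]
  have : ∀ a ∈ S, ∑ j, (lb m a).1 j = 1 := by
    intro a _
    unfold lb
    simp
  rw [Finset.sum_congr rfl this]
  simp

/-- the number of pairs in decreasing order -/
def pc (S : Finset (Fin m)) : ℕ := (S.offDiag.filter fun p => p.2 < p.1).card

theorem two_pc (S : Finset (Fin m)) : 2 * pc S = S.card * S.card - S.card := by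
  rw [← Finset.offDiag_card]
  have h1 : (S.offDiag.filter fun p => ¬ p.2 < p.1).card = pc S := by
    unfold pc
    refine Finset.card_bij (fun p _ => (p.2, p.1)) ?_ ?_ ?_
    · rintro ⟨a, b⟩ h
      rw [Finset.mem_filter, Finset.mem_offDiag] at h ⊢
      obtain ⟨⟨h1, h2, h3⟩, h4⟩ := h
      exact ⟨⟨h2, h1, Ne.symm h3⟩, lt_of_le_of_ne (not_lt.mp h4) h3⟩
    · rintro ⟨a, b⟩ _ ⟨a', b'⟩ _ h
      rw [Prod.mk.injEq] at h
      rw [Prod.mk.injEq]
      exact ⟨h.2, h.1⟩
    · rintro ⟨a, b⟩ h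
      rw [Finset.mem_filter, Finset.mem_offDiag] at h
      obtain ⟨⟨h1, h2, h3⟩, h4⟩ := h
      refine ⟨(b, a), ?_, rfl⟩
      rw [Finset.mem_filter, Finset.mem_offDiag]
      exact ⟨⟨h2, h1, Ne.symm h3⟩, not_lt_of_gt h4⟩
  have h2 := Finset.card_filter_add_card_filter_not (s := S.offDiag)
    (fun p : Fin m × Fin m => p.2 < p.1)
  rw [h1] at h2
  unfold pc at h2 ⊢
  omega

theorem dot_lS (S : Finset (Fin m)) : (lS m S).2 ⬝ᵥ (lS m S).1 = (pc S : ZMod 2) := by
  unfold lS
  rw [Prod.fst_sum, Prod.snd_sum, sum_dotProduct]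
  have h1 : ∀ a ∈ S, (lb m a).2 ⬝ᵥ (∑ b ∈ S, (lb m b).1) =
      ∑ b ∈ S, if b < a then (1 : ZMod 2) else 0 := by
    intro a _
    rw [dotProduct_sum]
    exact Finset.sum_congr rfl fun b _ => lb_dot a b
  rw [Finset.sum_congr rfl h1, ← Finset.sum_product', pc, Finset.card_filter, Nat.cast_sum]
  have h2 : S.offDiag ⊆ S ×ˢ S := by
    intro p hp
    rw [Finset.mem_offDiag] at hp
    rw [Finset.mem_product]
    exact ⟨hp.1, hp.2.1⟩
  rw [← Finset.sum_subset h2]
  · refine Finset.sum_congr rfl fun p _ => ?_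
    split_ifs <;> simp
  · intro p hp hp2
    rw [Finset.mem_product] at hp
    rw [Finset.mem_offDiag] at hp2
    push Not at hp2
    have := hp2 hp.1 hp.2
    rw [this, if_neg (lt_irrefl _)]

theorem sign_aux (k T : ℕ) (h : 2 * T = k * k - k) :
    (I ^ k).im * ((-1) ^ k * (-1) ^ T) = if Odd k then (-1 : ℝ) else 0 := by
  obtain ⟨j, r, hr, rfl⟩ : ∃ j r, r < 4 ∧ k = 4 * j + r :=
    ⟨k / 4, k % 4, Nat.mod_lt _ (by norm_num), (Nat.div_add_mod k 4).symm⟩
  have hI : ∀ r : ℕ, I ^ (4 * j + r) = I ^ r := by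
    intro r
    rw [pow_add, pow_mul, I_pow_four, one_pow, one_mul]
  rw [hI]
  interval_cases r
  · rw [if_neg]
    · simp
    · rw [Nat.not_odd_iff_even]
      exact ⟨2 * j, by ring⟩
  · have hT : T = 2 * (4 * j * j + j) := by
      have : (4 * j + 1) * (4 * j + 1) - (4 * j + 1) = 4 * (4 * j * j + j) := by
        have : (4 * j + 1) * (4 * j + 1) = 4 * (4 * j * j + j) + (4 * j + 1) := by ring
        omega
      omega
    rw [if_pos ⟨2 * j, by ring⟩, hT, pow_mul (-1 : ℝ) 2, pow_add, pow_mul (-1 : ℝ) 4]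
    norm_num
  · rw [if_neg]
    · simp
    · rw [Nat.not_odd_iff_even]
      exact ⟨2 * j + 1, by ring⟩
  · have hT : T = 2 * (4 * j * j + 5 * j + 1) + 1 := by
      have : (4 * j + 3) * (4 * j + 3) - (4 * j + 3) = 4 * (4 * j * j + 5 * j + 1) + 2 := by
        have : (4 * j + 3) * (4 * j + 3) = 4 * (4 * j * j + 5 * j + 1) + 2 + (4 * j + 3) := by ring
        omega
      omega
    rw [if_pos ⟨2 * j + 1, by ring⟩, hT, pow_add (-1 : ℝ) (2 * _), pow_mul (-1 : ℝ) 2,
      pow_add (-1 : ℝ) (4 * j), pow_mul (-1 : ℝ) 4]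
    simp [pow_succ]

/-! ### the value -/

/-- the operator for general `m`, `c`, `s` -/
noncomputable def Rcs (m : ℕ) (c s : ℝ) : Matrix (V m × V m) (V m × V m) ℂ :=
  ap (kk m) ((2 / 3 : ℂ) • 1 + (1 / 3 : ℂ) • (gen m).Rh c s)

theorem phi_Rcs (c s : ℝ) : phi m (Rcs m c s) = (((2 : ℝ) ^ m *
    (1 - 1 / 3 * ∑ S ∈ (Finset.univ : Finset (Fin m)).powerset,
      if Odd S.card then c ^ (m - S.card) * s ^ S.card * mu (lS m S) ^ 2 else 0) : ℝ) : ℂ) := by
  have e1 : Rcs m c s = 1 + (1 / 3 : ℂ) • ∑ S ∈ (Finset.univ : Finset (Fin m)).powerset,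
      ((cf m c s S.card : ℂ) * (mu (lS m S) : ℂ) ^ 2) • Qh (lS m S) := by
    unfold Rcs
    rw [← apL_apply, map_add, map_smul, map_smul, Rh_expand, map_add, map_sum]
    simp only [map_smul, apL_apply, ap_Qh, ap_kk_one, smul_smul]
    rw [smul_add, ← add_assoc, ← add_smul]
    norm_num
  have e2 : ∀ S : Finset (Fin m), phi m (((cf m c s S.card : ℂ) * (mu (lS m S) : ℂ) ^ 2) •
      Qh (lS m S)) = (((2 : ℝ) ^ m * -(if Odd S.card then
        c ^ (m - S.card) * s ^ S.card * mu (lS m S) ^ 2 else 0) : ℝ) : ℂ) := by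
    intro S
    rw [map_smul, phi_Qh, sum_lS, dot_lS, sg_nat, sg_nat, smul_eq_mul, cf]
    have h := sign_aux S.card (pc S) (two_pc S)
    have h2 : c ^ (m - S.card) * s ^ S.card * (I ^ S.card).im * mu (lS m S) ^ 2 *
        (2 ^ m * ((-1) ^ S.card * (-1) ^ pc S)) = 2 ^ m * -(if Odd S.card then
        c ^ (m - S.card) * s ^ S.card * mu (lS m S) ^ 2 else 0) := by
      have h3 : c ^ (m - S.card) * s ^ S.card * (I ^ S.card).im * mu (lS m S) ^ 2 *
        (2 ^ m * ((-1) ^ S.card * (-1) ^ pc S)) = 2 ^ m * (c ^ (m - S.card) * s ^ S.card *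
          mu (lS m S) ^ 2) * ((I ^ S.card).im * ((-1) ^ S.card * (-1) ^ pc S)) := by ring
      rw [h3, h]
      split_ifs
      · ring
      · ring
    rw [← h2]
    push_cast
    ring
  have e3 : phi m (1 : Matrix (V m × V m) (V m × V m) ℂ) = (2 : ℂ) ^ m := by
    rw [← Qh_zero, phi_Qh]
    simp [sg_zero]
  rw [e1, map_add, e3, map_smul, map_sum]
  simp only [e2]
  rw [smul_eq_mul, ← Complex.ofReal_sum, ← Finset.mul_sum, Finset.sum_neg_distrib]
  push_cast
  ring

theorem not_ppt (c s : ℝ) (hc : 0 ≤ c) (hs : 0 ≤ s)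
    (hv : (1 : ℝ) < 1 / 27 * m * s * c ^ (m - 1)) : ¬ (pTrans (Rcs m c s)).PosSemidef := by
  intro h
  have h1 := phi_nonneg _ h
  rw [phi_Rcs, Complex.ofReal_re] at h1
  have h2 : (0 : ℝ) < 2 ^ m := by positivity
  have h3 : (0 : ℝ) ≤ 1 - 1 / 3 * ∑ S ∈ (Finset.univ : Finset (Fin m)).powerset,
      (if Odd S.card then c ^ (m - S.card) * s ^ S.card * mu (lS m S) ^ 2 else 0) := by
    by_contra hcon
    push Not at hcon
    nlinarith [mul_neg_of_pos_of_neg h2 hcon]
  have h4 : ∑ S ∈ (Finset.univ : Finset (Fin m)).map ⟨fun a => ({a} : Finset (Fin m)),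
      Finset.singleton_injective⟩,
      (if Odd S.card then c ^ (m - S.card) * s ^ S.card * mu (lS m S) ^ 2 else 0) ≤
      ∑ S ∈ (Finset.univ : Finset (Fin m)).powerset,
      (if Odd S.card then c ^ (m - S.card) * s ^ S.card * mu (lS m S) ^ 2 else 0) := by
    refine Finset.sum_le_sum_of_subset_of_nonneg ?_ ?_
    · intro S _
      rw [Finset.mem_powerset]
      exact Finset.subset_univ S
    · intro S _ _
      split_ifs
      · positivity
      · exact le_refl 0
  rw [Finset.sum_map] at h4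
  simp only [Function.Embedding.coeFn_mk, Finset.card_singleton, odd_one, if_true, pow_one] at h4
  have h5 : ∀ a : Fin m, mu (lS m {a}) = 1 / 3 := by
    intro a
    unfold lS
    rw [Finset.sum_singleton, mu_lb]
  simp only [h5, Finset.sum_const, Finset.card_univ, Fintype.card_fin, nsmul_eq_mul] at h4
  nlinarith

theorem opR_not_ppt : ¬ (pTrans opR).PosSemidef := by
  refine not_ppt cs sn cs_nonneg ?_ ?_
  · unfold sn
    norm_num
  · have h := value_gt
    push_cast
    exact h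

end Vale.Agent.P372.H676
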