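import Vale.Agent.P372.H536.Final
import Vale.Agent.P372.H676.Npt
import Vale.Agent.P372.H676.LinkNpt

/-!
# An entangled state, not PPT, without distillable key
-/

open Matrix Kronecker
open scoped ComplexOrder MatrixOrder

namespace Vale.Agent.P372.H676

/-- Question 1 in the negative, by a state which is moreover not PPT. -/
theorem final :
    ∃ (a b : ℕ) (ρ : Matrix (Fin a × Fin b) (Fin a × Fin b) ℂ), ρ.PosSemidef ∧ ρ.trace = 1 ∧
      ¬ IsSep ρ ∧ ¬ (pTrans ρ).PosSemidef ∧
      ∀ (E : Type) [Fintype E] [DecidableEq E] (Ψ : Matrix (Fin a × Fin b) E ℂ),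
        Ψ * Ψᴴ = ρ → distillableKey Ψ = 0 :=
  link H507.opR H536.opR_psd H507.opR_not_isSep opR_not_ppt H536.opR_noTest

end Vale.Agent.P372.H676
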